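import Vale.Agent.P335.Mix

namespace Vale.Agent.Results.P335.RapidMixing

open Vale.Agent.P335

theorem result (n : ℕ) (hn : 4 ≤ n) (d : Fin n → ℕ) :
    (∀ t : ℕ, 8 * n ^ 6 ≤ t → ∀ G : Omega d, tvDist d t G ≤ 1 / 4) ∧ tmix d ≤ 8 * n ^ 6 := by
  have h : ∀ t : ℕ, 8 * n ^ 6 ≤ t → ∀ G : Omega d, tvDist d t G ≤ 1 / 4 := fun t ht G =>
    tvDist_le (by simpa using hn) t (by simpa using ht) G
  exact ⟨h, Nat.sInf_le (h _ le_rfl)⟩

end Vale.Agent.Results.P335.RapidMixing
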